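import Vale.Agent.P358.Chi

namespace Vale.Agent.Results.P358.Main

open Vale.Agent.P358

theorem result (γ ν : ℝ) (hγ : γ ∈ Set.Icc (0 : ℝ) 1) (hν : ν ∈ Set.Icc (0 : ℝ) 1) :
    (∀ (q : ℝ) (z : ℂ), gad γ ν !![1 - (q : ℂ), z; star z, (q : ℂ)] =
      !![1 - (((1 - γ) * q + γ * ν : ℝ) : ℂ), (√(1 - γ) : ℝ) * z;
        (√(1 - γ) : ℝ) * star z, (((1 - γ) * q + γ * ν : ℝ) : ℂ)]) ∧
    (∀ n : ℕ, BddAbove (holevoSet (tensorPow (gad γ ν) n))) ∧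
    (∀ n : ℕ, 1 ≤ n → holevo (tensorPow (gad γ ν) n) = n * holevo (gad γ ν)) ∧
    capacity (gad γ ν) = holevo (gad γ ν) ∧
    capacity (gad γ ν) = sSup {y | ∃ q ∈ Set.Icc (0 : ℝ) 1, ∃ t, t = (1 - γ) * q + γ * ν ∧
      y = h2 t - h2 ((1 + √(1 - 4 * (t * (1 - t) - (1 - γ) * q * (1 - q)))) / 2)} := by
  obtain ⟨a, b, c, d⟩ := main hγ hν _ rfl
  refine ⟨fun q z => ?_, a, fun n hn => by rw [b n hn, c], by rw [c, d], ?_⟩
  · ext i j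
    fin_cases i <;> fin_cases j <;> simp [gad] <;> ring
  · rw [d]
    congr 1
    ext y
    simp only [Set.mem_ofPred_eq, gv_eq, exists_eq_left]

end Vale.Agent.Results.P358.Main
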